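import Vale.Agent.P192.R2.H360.R.Defs

set_option linter.all false

/-! Machines over a group: row R5b. -/

namespace Vale.Agent.P192.R2.H170

open Vale.Agent.P192 Vale.Agent.P192.H437 Vale.Agent.P192.H593 Vale.Agent.P192.R2.H577
open Vale.Agent.P192.R2.H360.R
open scoped Pointwise

universe u v

section

variable {G : Type v} [Group G] {S : Set G} {H A Q : Type} [Group H] [DecidableEq H]
  {T : Finset H} {X : Type u} [MulAction G X] {hd : X → H} {tp : X → H → A} {st : X → Q}

theorem hd_list (hL : Loc S T X hd tp st) : ∀ w : List G, (∀ s ∈ w, s ∈ S ∨ s⁻¹ ∈ S) →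
    ∀ x : X, (hd x)⁻¹ * hd (w.prod • x) ∈ T ^ w.length := by
  intro w
  induction w with
  | nil => intro _ x; simp
  | cons s w ih =>
    intro hw x
    have h1 := ih (fun t ht => hw t (by simp [ht])) x
    have h2 := hL.move (w.prod • x) s (hw s (by simp))
    have h3 := Finset.mul_mem_mul h1 h2
    rw [List.prod_cons, mul_smul, List.length_cons, pow_succ]
    have e : (hd x)⁻¹ * hd (s • w.prod • x) =
        ((hd x)⁻¹ * hd (w.prod • x)) * ((hd (w.prod • x))⁻¹ * hd (s • w.prod • x)) := by group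
    rw [e]
    exact h3

theorem hd_hop (hL : Loc S T X hd tp st) {n : ℕ} {x y : X} (h : hop S n x y) :
    (hd x)⁻¹ * hd y ∈ T ^ n := by
  obtain ⟨w, hw, hn, rfl⟩ := h
  exact Finset.pow_subset_pow_right hL.one hn (hd_list hL w hw x)

theorem near (hL : Loc S T X hd tp st) {n m : ℕ} {x v : X} {p : H} (h : hop S n x v)
    (hp : (hd v)⁻¹ * p ∈ T) (hm : n + 1 ≤ m) : (hd x)⁻¹ * p ∈ T ^ m := by
  have h3 := Finset.mul_mem_mul (hd_hop hL h) hp
  have e : (hd x)⁻¹ * p = ((hd x)⁻¹ * hd v) * ((hd v)⁻¹ * p) := by group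
  rw [e]
  rw [← pow_succ] at h3
  exact Finset.pow_subset_pow_right hL.one hm h3

theorem fb_of_cn {D W : Set X} {b u : X} (h : cn (sch S X) W b u) (hb : b ∉ D) (hu : u ∈ D) :
    ∃ v ∈ fb S D, v ∈ W := by
  induction h with
  | refl => exact absurd hu hb
  | @tail c d _ hst ih =>
    by_cases hc : c ∈ D
    · exact ih hc
    · obtain ⟨hcW, hdW, hne, s, hs, rfl⟩ := hst
      exact ⟨c, ⟨s, hs, Or.inr ⟨hc, hu⟩⟩, hcW⟩

theorem fb_of_bd {D : Set X} {v : X} (h : v ∈ bd (sch S X) D) : v ∈ fb S D := by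
  obtain ⟨hv, y, ⟨-, s, hs, rfl⟩, hy⟩ := h
  exact ⟨s, hs, Or.inl ⟨hv, hy⟩⟩

end

theorem r5b : R5b.{u, v} := by
  classical
  intro G _ _ hG S hSf hS H A Q _ _ _ _ T K
  refine ⟨Nat.card Q * (Nat.card A ^ (T ^ (2 * K + 1)).card *
    (Nat.card A ^ (T ^ (2 * K + 1)).card * Nat.card A ^ (T ^ (2 * K + 1)).card)), ?_⟩
  intro X _ _ hd tp st hL hsep Z hZ a b hab hfar
  haveI : Nonempty X := ⟨a⟩
  have hc : (sch S X).Connected := sch_connected hS
  let U : ℕ → Set X := fun r => {z | r < (sch S X).dist a z ∧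
    cn (sch S X) {w | r < (sch S X).dist a w} b z}
  have hone : ∀ (s : G), (s ∈ S ∨ s⁻¹ ∈ S) → ∀ z : X, (sch S X).dist z (s • z) ≤ 1 := by
    intro s hs z
    rw [← hop_iff hc]
    exact ⟨[s], by simpa using hs, by simp, by simp⟩
  -- a neighbour of a point of `U r` outside the ball is in `U r`
  have hstep : ∀ (r : ℕ) (s : G), (s ∈ S ∨ s⁻¹ ∈ S) → ∀ z : X, s • z ∈ U r →
      r < (sch S X).dist a z → z ∈ U r := by
    intro r s hs z hu hz
    by_cases h : s • z = z
    · rw [h] at hu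
      exact hu
    · refine ⟨hz, hu.2.tail ⟨hu.1, hz, ?_⟩⟩
      exact SimpleGraph.Adj.symm ⟨fun e => h e.symm, s, hs, rfl⟩
  have hdown : ∀ (r : ℕ) (s : G), (s ∈ S ∨ s⁻¹ ∈ S) → ∀ z : X, s • z ∈ U (r + 1) → z ∈ U r := by
    intro r s hs z hu
    have h1 : (sch S X).dist a (s • z) ≤ (sch S X).dist a z + (sch S X).dist z (s • z) :=
      hc.dist_triangle
    have h2 := hone s hs z
    have h3 : r + 1 < (sch S X).dist a (s • z) := hu.1
    apply hstep r s hs z
    · exact ⟨by omega, cn_mono (fun w hw => lt_of_le_of_lt (Nat.le_succ r) hw) hu.2⟩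
    · omega
  have hdown' : ∀ (r : ℕ) (z : X), z ∈ U (r + 1) → z ∈ U r := by
    intro r z hu
    exact ⟨lt_of_le_of_lt (Nat.le_succ r) hu.1,
      cn_mono (fun w hw => lt_of_le_of_lt (Nat.le_succ r) hw) hu.2⟩
  -- points of the boundary
  have hbd : ∀ (r : ℕ) (z : X), z ∈ bdry S (U r)ᶜ → (sch S X).dist a z = r ∧
      ∃ s : G, (s ∈ S ∨ s⁻¹ ∈ S) ∧ s • z ∈ U r := by
    intro r z hz
    obtain ⟨hzU, s, hs, h⟩ := hz
    obtain ⟨t, ht, htU⟩ : ∃ t : G, (t ∈ S ∨ t⁻¹ ∈ S) ∧ t • z ∈ U r := by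
      rcases h with h | h
      · exact ⟨s, Or.inl hs, by simpa using h⟩
      · exact ⟨s⁻¹, Or.inr (by simpa using hs), by simpa using h⟩
    refine ⟨?_, t, ht, htU⟩
    have h1 : (sch S X).dist a (t • z) ≤ (sch S X).dist a z + (sch S X).dist z (t • z) :=
      hc.dist_triangle
    have h2 := hone t ht z
    have h3 : r < (sch S X).dist a (t • z) := htU.1
    have h4 : ¬ r < (sch S X).dist a z := fun h => hzU (hstep r t ht z htU h)
    omega
  -- the tape at the boundary
  have hstar : ∀ (r : ℕ) (z : X), z ∈ bdry S (U r)ᶜ → ∀ p, tp z p ≠ tp a p →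
      (hd z)⁻¹ * p ∈ T ^ (2 * K + 1) ∨ (hd a)⁻¹ * p ∈ T ^ (2 * K + 1) ∨
        (hd b)⁻¹ * p ∈ T ^ (2 * K + 1) := by
    intro r z hz p hp
    obtain ⟨hr, s, hs, hu⟩ := hbd r z hz
    obtain ⟨D, hzD, haD, hDK, hDT, hDh⟩ := hsep z a p hp
    by_cases hbD : b ∈ D
    · obtain ⟨v, hv, h | h⟩ := hfar D hDK hDh (Or.inr ⟨haD, hbD⟩)
      · exact Or.inr (Or.inl (near hL h (hDT v hv) le_rfl))
      · exact Or.inr (Or.inr (near hL h (hDT v hv) le_rfl))
    · left
      by_cases huD : s • z ∈ D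
      · obtain ⟨v, hv, hvr⟩ := fb_of_cn hu.2 hbD huD
        have hvr' : r < (sch S X).dist a v := hvr
        obtain ⟨v', hv', hgeo⟩ := exit hc D a haD _ z rfl hzD
        have hv'' := fb_of_bd hv'
        have h1 := (hop_iff hc).1 (hDh v' hv'' v hv)
        have h2 : (sch S X).dist a v ≤ (sch S X).dist a v' + (sch S X).dist v' v :=
          hc.dist_triangle
        have h3 : (sch S X).dist v' a = (sch S X).dist a v' := SimpleGraph.dist_comm
        have h4 : (sch S X).dist z a = (sch S X).dist a z := SimpleGraph.dist_comm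
        have h5 : (sch S X).dist z v' ≤ K := by omega
        exact near hL ((hop_iff hc).2 h5) (hDT v' hv'') (by omega)
      · have hzf : z ∈ fb S D := ⟨s, hs, Or.inl ⟨hzD, huD⟩⟩
        have h1 := hDT z hzf
        have h2 : (hd z)⁻¹ * p ∈ T ^ 1 := by rw [pow_one]; exact h1
        exact Finset.pow_subset_pow_right hL.one (by omega) h2
  -- counting
  let B : Set X := {z | ∀ p, tp z p ≠ tp a p →
      (hd z)⁻¹ * p ∈ T ^ (2 * K + 1) ∨ (hd a)⁻¹ * p ∈ T ^ (2 * K + 1) ∨
        (hd b)⁻¹ * p ∈ T ^ (2 * K + 1)}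
  let W : Finset H := T ^ (2 * K + 1)
  let f : X → Z × Q × (W → A) × (W → A) × (W → A) := fun z =>
    (⟨hd z, hZ z⟩, st z, (fun w => tp z (hd z * w)), (fun w => tp z (hd a * w)),
      (fun w => tp z (hd b * w)))
  have hinj : Set.InjOn f B := by
    intro z hz z' hz' e
    simp only [f, Prod.mk.injEq, Subtype.mk.injEq] at e
    obtain ⟨e1, e2, e3, e4, e5⟩ := e
    apply hL.inj z z' e1 e2
    funext p
    by_cases h1 : (hd z)⁻¹ * p ∈ T ^ (2 * K + 1)
    · have := congrFun e3 ⟨(hd z)⁻¹ * p, h1⟩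
      simpa [← e1] using this
    by_cases h2 : (hd a)⁻¹ * p ∈ T ^ (2 * K + 1)
    · have := congrFun e4 ⟨(hd a)⁻¹ * p, h2⟩
      simpa using this
    by_cases h3 : (hd b)⁻¹ * p ∈ T ^ (2 * K + 1)
    · have := congrFun e5 ⟨(hd b)⁻¹ * p, h3⟩
      simpa using this
    have h4 : tp z p = tp a p := by
      by_contra h
      rcases hz p h with h | h | h
      · exact h1 h
      · exact h2 h
      · exact h3 h
    have h5 : tp z' p = tp a p := by
      by_contra h
      rcases hz' p h with h | h | h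
      · exact h1 (by rw [e1]; exact h)
      · exact h2 h
      · exact h3 h
    rw [h4, h5]
  haveI : Fintype Q := Fintype.ofFinite Q
  haveI : Fintype A := Fintype.ofFinite A
  have hfin : B.Finite := Set.Finite.of_injOn (Set.mapsTo_univ f B) hinj Set.finite_univ
  have hcard : hfin.toFinset.card ≤ (Nat.card Q * (Nat.card A ^ (T ^ (2 * K + 1)).card *
    (Nat.card A ^ (T ^ (2 * K + 1)).card * Nat.card A ^ (T ^ (2 * K + 1)).card))) * Z.card := by
    have h1 : hfin.toFinset.card ≤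
        (Finset.univ : Finset (Z × Q × (W → A) × (W → A) × (W → A))).card := by
      apply Finset.card_le_card_of_injOn f (fun _ _ => Finset.mem_coe.2 (Finset.mem_univ _))
      intro x hx y hy e
      exact hinj (by simpa using hx) (by simpa using hy) e
    refine h1.trans (le_of_eq ?_)
    rw [Finset.card_univ, Fintype.card_prod, Fintype.card_prod, Fintype.card_prod,
      Fintype.card_prod, Fintype.card_fun, Fintype.card_coe, Fintype.card_coe,
      Nat.card_eq_fintype_card, Nat.card_eq_fintype_card]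
    ring
  have hpos : 0 < (sch S X).dist a b := hc.pos_dist_of_ne hab
  refine ⟨fun r => (U r)ᶜ, ⟨a, fun h => ?_⟩, fun h => ?_, ?_, ?_⟩
  · have h1 : 0 < (sch S X).dist a a := h.1
    rw [SimpleGraph.dist_self] at h1
    exact lt_irrefl _ h1
  · have h1 : b ∈ (fun r => (U r)ᶜ) ((sch S X).dist a b - 1) := h ▸ Set.mem_univ b
    exact h1 ⟨by omega, Relation.ReflTransGen.refl⟩
  · intro i _ z hz
    refine ⟨fun h => hz (hdown' i z h), fun s hs => ⟨fun h => hz (hdown i s (Or.inl hs) z h),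
      fun h => hz (hdown i s⁻¹ (Or.inr (by simpa using hs)) z h)⟩⟩
  · set n := (sch S X).dist a b - 1 with hn
    have hle : ∀ i ∈ Finset.range n, (bdry S (U i)ᶜ).encard ≤
        (((hfin.toFinset.filter (fun z => (sch S X).dist a z = i)).card : ℕ) : ℕ∞) := by
      intro i _
      rw [← Set.encard_coe_eq_coe_finsetCard]
      apply Set.encard_le_encard
      intro z hz
      simp only [Finset.coe_filter, Set.Finite.mem_toFinset, Set.mem_setOf_eq]
      exact ⟨hstar i z hz, (hbd i z hz).1⟩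
    refine (Finset.sum_le_sum hle).trans ?_
    rw [← Nat.cast_sum]
    refine Nat.cast_le.2 (le_trans ?_ hcard)
    let s' := hfin.toFinset.filter (fun z => (sch S X).dist a z ∈ Finset.range n)
    have h1 : s'.card = ∑ i ∈ Finset.range n,
        (s'.filter (fun z => (sch S X).dist a z = i)).card :=
      Finset.card_eq_sum_card_fiberwise (fun z hz => by
        have := (Finset.mem_filter.1 (Finset.mem_coe.1 hz)).2
        exact Finset.mem_coe.2 this)
    have h2 : ∀ i ∈ Finset.range n,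
        (hfin.toFinset.filter (fun z => (sch S X).dist a z = i)).card ≤
        (s'.filter (fun z => (sch S X).dist a z = i)).card := by
      intro i hi
      apply Finset.card_le_card
      intro z hz
      obtain ⟨hz1, hz2⟩ := Finset.mem_filter.1 hz
      exact Finset.mem_filter.2 ⟨Finset.mem_filter.2 ⟨hz1, by rw [hz2]; exact hi⟩, hz2⟩
    refine (Finset.sum_le_sum h2).trans ?_
    rw [← h1]
    exact Finset.card_le_card (Finset.filter_subset _ _)

end Vale.Agent.P192.R2.H170
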